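import Vale.Agent.P083.Words
import Vale.Agent.P083.Angle
import Vale.Agent.P083.AAngle
import Vale.Agent.P083.Corr
import Vale.Agent.P083.Step
import Vale.Agent.P083.NucF
import Vale.Agent.P083.Scal
import Vale.Agent.P083.SVD
import Vale.Agent.P083.Egap
import Vale.Agent.P083.Four
import Vale.Agent.P083.Alg
import Vale.Agent.P083.Rep
import Vale.Agent.P083.Ultra
import Vale.Agent.P083.Asm
import Vale.Agent.P083.Adapt

/-!
P083: Kirchberg's embedding problem has a negative answer.  There is a separable unital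
C*-algebra `A` that does not embed in any norm ultrapower of the Cuntz algebra `O₂` (the
C*-algebra generated by two isometries `s₀, s₁` with `s₀ s₀* + s₁ s₁* = 1`).
-/

namespace Vale.Agent.Results.P083.KirchbergEmbedding

open Vale.Agent.P083

universe u

theorem result :
    ∃ (A : Type) (_ : CStarAlgebra A), TopologicalSpace.SeparableSpace A ∧ Nontrivial A ∧
      ∀ (B : Type u) [CStarAlgebra B] (s : Fin 2 → B),
        (∀ i, star (s i) * s i = 1) → s 0 * star (s 0) + s 1 * star (s 1) = 1 →
        (StarAlgebra.adjoin ℂ (Set.range s)).topologicalClosure = ⊤ →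
        ∀ ω : Ultrafilter ℕ, (ω : Filter ℕ) ≤ Filter.cofinite →
          ¬ ∃ φ : A →⋆ₐ[ℂ] Ultrapower ω B, Function.Injective φ := by
  obtain ⟨A, iA, hsep, hnt, h⟩ := Ultra.final.{u} Rep.rep
    (Asm.induct (Corr.corr (AAngle.aangle Angle.angle) Words.hS Words.nEW)
      (Step.step Words.rEC) (Step.base Words.rEC))
    (Asm.contra Nuc.nuc Scal.scal SVD.svd (Egap.egap Angle.angle Words.hS Words.nEW) Four.four)
    (Alg.alg Words.hS Words.rEC)
  refine ⟨A, iA, hsep, hnt, ?_⟩
  rintro B _ s h1 h2 h3 ω hω ⟨φ, hφ⟩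
  exact h B s h1 h2 h3 ω hω ⟨(Adapt.toNU ω).comp φ, (Adapt.toNU_injective ω).comp hφ⟩

end Vale.Agent.Results.P083.KirchbergEmbedding
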